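import Vale.Agent.P244.P1.Lin

/-!
P1/Base: the equations of `u₁`, `u₂` have the linear structure `Lin`.
-/

namespace Vale.Agent.P244

open scoped ContDiff Topology
open Set Filter Real

namespace IC

variable {κ : Cst} {q : Rn κ → Prop} {c : Ctx (Ix q)} {n : ℕ} (hc : IC c n)
include hc

theorem p1_facts (i : Ix q) {y : ℝ} (hy : y ∈ c.Ω i) :
    0 < F St.sg i y ∧ F St.sg i y ≤ 1 ∧ F St.hh i y * F St.hh i y ≤ F St.sg i y ∧
      0 ≤ F St.f2 i y ∧ F St.f2 i y ≤ 2 * F St.sg i y := by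
  have b := hc.bas i y hy
  have hτ := i.1.1.tau_pos i.2.2
  have hy1 : y ∈ Icc (0 : ℝ) 1 := ⟨b.mem.1, b.mem.2.trans (by norm_num)⟩
  have e1 := i.1.1.S.sg_eq i.1.2 y
  have e2 := i.1.1.S.f2_eq i.1.2 y
  have h0 := i.1.1.S.hh_pos i.1.2 y
  have h3 := b.sg
  have h4 := b.h
  have h5 := b.th
  have h6 : i.1.1.S.th i.1.2 y * i.1.1.S.hh i.1.2 y ^ 2 ≤ 2 * i.1.1.S.hh i.1.2 y ^ 2 := by gcongr
  simp only [Rn.tau] at hτ
  simp only [F]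
  refine ⟨by nlinarith, by linarith, by nlinarith, i.1.1.S.f2_nonneg hy1, by linarith⟩

theorem p1_f2 : c.Sy (n + 1) (Ctx.w1 _) (F St.f2) :=
  hc.f2.mono ⟨2, zero_le_two, fun i y hy => by
    obtain ⟨-, h2, -, h4, h5⟩ := hc.p1_facts i hy
    rw [abs_of_nonneg h4, abs_one]
    linarith⟩

theorem p1_f2s : c.Sy (n + 1) (Ctx.w1 _) (fun i y => F St.f2 i y * (F St.sg i y)⁻¹) :=
  (hc.f2.mul hc.sg_inv).mono ⟨2, zero_le_two, fun i y hy => by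
    obtain ⟨h1, -, -, h4, h5⟩ := hc.p1_facts i hy
    beta_reduce
    rw [abs_of_nonneg (by positivity), abs_one, ← div_eq_mul_inv, div_le_iff₀ h1]
    linarith⟩

theorem p1_h2s :
    c.Sy (n + 1) (Ctx.w1 _) (fun i y => F St.hh i y * F St.hh i y * (F St.sg i y)⁻¹) :=
  ((hc.hh.mul hc.hh).mul hc.sg_inv).mono ⟨1, zero_le_one, fun i y hy => by
    obtain ⟨h1, -, h3, -, -⟩ := hc.p1_facts i hy
    beta_reduce
    rw [abs_of_nonneg (mul_nonneg (mul_self_nonneg _) (by positivity)), abs_one, ← div_eq_mul_inv,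
      div_le_iff₀ h1]
    linarith⟩

theorem p1_cE : c.Sy (n + 1) (Ctx.w1 _) (F St.cE) := hc.cE.mono hc.th1.bd

end IC

variable {κ : Cst} {q : Rn κ → Prop} {c : Ctx (Ix q)} {l : ℕ}

theorem IC.p1_ES (hc : IC c (l + 1)) (h1 : c.Sy (l + 1) (fun _ _ => 1) (F St.u1))
    (hE : c.Bd (fun i y => F St.sg i y ^ 3) (F St.EE)) :
    c.Sy (l + 2) (Ctx.w1 _) (fun i y => F St.EE i y * (F St.sg i y)⁻¹ * (F St.sg i y)⁻¹) :=
  (((hc.EE (Nat.le_succ l) h1 hE).mul hc.sg_inv).mul hc.sg_inv).mono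
    ⟨1, zero_le_one, fun i y hy => by
      obtain ⟨h1, h2, -⟩ := hc.p1_facts i hy
      have e : F St.sg i y ^ 3 * (F St.sg i y)⁻¹ * (F St.sg i y)⁻¹ = F St.sg i y := by field_simp
      beta_reduce
      rw [e, abs_of_pos h1, abs_one]
      linarith⟩

theorem IC.lin_u1 (hc : IC c (l + 1)) (hJ : ∀ i, c.J i ⊆ Ioo 0 1)
    (h1 : c.Sy (l + 1) (fun _ _ => 1) (F St.u1)) (h2 : c.Sy (l + 1) (fun _ _ => 1) (F St.u2))
    (hE : c.Bd (fun i y => F St.sg i y ^ 3) (F St.EE)) :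
    c.Lin (l + 2) (l + 1) (PF St.u1) (c.D (F St.u1)) (c.D (F St.u2)) := by
  have ES := hc.p1_ES h1 hE
  have Ca := hc.C1.add (hc.aa.cmul 2)
  refine ⟨_, _, _, Ca.add (hc.ls.cmul 4), hc.p1_cE.mul1 ES,
    (((((((hc.WW.pred.sub (c.sy_num _ 4)).sub hc.C1.D).neg.add
      (((hc.p1_f2s.cmul 9).add (((hc.bb.mul1 hc.bb).mul1 hc.p1_h2s).cmul 4)).cmul 2).pred).add
      ((hc.ls.mul1 hc.ls).cmul 2).pred).add ((Ca.mul1 hc.ls).cmul 2).pred).mul1 h1).add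
      (((hc.p1_cE.D.mul1 ES.pred).add ((hc.p1_cE.mul1 hc.p1_f2).pred.mul1 h1)).mul1 h2)),
    fun i y hy => ?_⟩
  simp only [hc.D_F, PF, F]
  rw [i.1.1.sol.pop_u1 i.2.2 (hJ i hy)]
  simp only [St.mu0]
  ring

theorem IC.lin_u2 (hc : IC c (l + 1)) (hJ : ∀ i, c.J i ⊆ Ioo 0 1)
    (h1 : c.Sy (l + 1) (fun _ _ => 1) (F St.u1)) (h2 : c.Sy (l + 1) (fun _ _ => 1) (F St.u2)) :
    c.Lin (l + 2) (l + 1) (PF St.u2) (c.D (F St.u2)) (c.D (F St.u1)) := by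
  have Z := hc.ze (Nat.le_succ l) h1 h2
  refine ⟨_, _, _, hc.aa.cmul 2, c.sy_num _ 0,
    (((c.sy_num _ 8).sub (hc.Gam.cmul (1 / 3))).pred.mul1 h2).sub
      ((((((c.sy_num _ 27).add hc.th1).mul1 hc.th1).mul1 hc.th3_inv).mul1 hc.th3_inv).pred.mul1
        (Z.mul1 Z)), fun i y hy => ?_⟩
  simp only [hc.D_F, PF, F]
  rw [i.1.1.sol.pop_u2 i.2.2 (hJ i hy), div_eq_mul_inv _ (_ ^ 2), ← inv_pow]
  ring

end Vale.Agent.P244
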