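import Vale.Agent.P244.Kit.MP

/-!
P1/Step: the Bernstein step in the inner region.  With `q i = dX (p i)` the function
`q₁² + q₂² + Λ (p₁² + p₂²) - M` stays negative.
-/

namespace Vale.Agent.P244

open scoped ContDiff Topology
open Set Filter Real

theorem p1_le {a b : ℝ} (h : a ^ 2 ≤ b ^ 2) (hb : 0 ≤ b) : a ≤ b :=
  (abs_le_of_sq_le_sq' h hb).2

theorem p1_alg {C L K p₁ p₂ q₁ q₂ r₁ r₂ P₁ P₂ Q₁ Q₂ : ℝ} (hC : 0 ≤ C) (hL : L = 2 * C + C ^ 2 + 1)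
    (hK : K = 2 * C + 8 * L * C ^ 2 + 1) (h1 : |p₁| ≤ C) (h2 : |p₂| ≤ C)
    (hP₁ : |P₁| ≤ C * (1 + |q₁| + |q₂|)) (hP₂ : |P₂| ≤ C * (1 + |q₁| + |q₂|))
    (hQ₁ : |Q₁| ≤ C * (1 + |q₁| + |q₂| + |r₁| + |r₂|))
    (hQ₂ : |Q₂| ≤ C * (1 + |q₁| + |q₂| + |r₁| + |r₂|)) (hq : K ^ 2 ≤ q₁ ^ 2 + q₂ ^ 2) :
    2 * q₁ * Q₁ - 2 * r₁ ^ 2 + (2 * q₂ * Q₂ - 2 * r₂ ^ 2) +
      L * (2 * p₁ * P₁ - 2 * q₁ ^ 2 + (2 * p₂ * P₂ - 2 * q₂ ^ 2)) < 0 := by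
  have hL0 : 0 < L := by rw [hL]; positivity
  have hK1 : 1 ≤ K := by rw [hK]; have : 0 ≤ 8 * L * C ^ 2 := by positivity
                         linarith
  set Q := |q₁| + |q₂| with hQ
  set R := |r₁| + |r₂| with hR
  have a1 := abs_nonneg q₁
  have a2 := abs_nonneg q₂
  have a3 := abs_nonneg r₁
  have a4 := abs_nonneg r₂
  have hQ2 : Q ^ 2 ≤ 2 * (q₁ ^ 2 + q₂ ^ 2) := by
    rw [hQ, ← sq_abs q₁, ← sq_abs q₂]; nlinarith [sq_nonneg (|q₁| - |q₂|)]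
  have hR2 : R ^ 2 ≤ 2 * (r₁ ^ 2 + r₂ ^ 2) := by
    rw [hR, ← sq_abs r₁, ← sq_abs r₂]; nlinarith [sq_nonneg (|r₁| - |r₂|)]
  have hQK : K ≤ Q := by
    refine p1_le ?_ (by positivity)
    rw [hQ, add_sq, sq_abs, sq_abs]
    linarith [mul_nonneg a1 a2]
  have b : ∀ {x X B : ℝ}, |X| ≤ B → x * X ≤ |x| * B := fun {x X B} h =>
    (le_abs_self _).trans (by rw [abs_mul]; exact mul_le_mul_of_nonneg_left h (abs_nonneg _))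
  have b1 := b (x := q₁) hQ₁
  have b2 := b (x := q₂) hQ₂
  have b3 := (b (x := p₁) hP₁).trans (mul_le_mul_of_nonneg_right h1 (by positivity))
  have b4 := (b (x := p₂) hP₂).trans (mul_le_mul_of_nonneg_right h2 (by positivity))
  have c1 : q₁ * Q₁ + q₂ * Q₂ ≤ Q * (C * (1 + Q + R)) := by
    have e : Q * (C * (1 + Q + R)) = |q₁| * (C * (1 + |q₁| + |q₂| + |r₁| + |r₂|)) +
        |q₂| * (C * (1 + |q₁| + |q₂| + |r₁| + |r₂|)) := by rw [hQ, hR]; ring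
    linarith
  have c2 : p₁ * P₁ + p₂ * P₂ ≤ 2 * C ^ 2 * (1 + Q) := by
    have e : 2 * C ^ 2 * (1 + Q) = C * (C * (1 + |q₁| + |q₂|)) + C * (C * (1 + |q₁| + |q₂|)) := by
      rw [hQ]; ring
    linarith
  have c3 : L * (2 * (p₁ * P₁ + p₂ * P₂) - 2 * (q₁ ^ 2 + q₂ ^ 2)) ≤
      L * (4 * C ^ 2 * (2 * Q) - Q ^ 2) := by
    refine mul_le_mul_of_nonneg_left ?_ hL0.le
    have : 4 * C ^ 2 * (1 + Q) ≤ 4 * C ^ 2 * (2 * Q) := by gcongr; linarith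
    linarith
  have c4 : 2 * (Q * (C * (1 + Q + R))) - R ^ 2 ≤ 2 * C * Q + (2 * C + C ^ 2) * Q ^ 2 := by
    nlinarith [sq_nonneg (C * Q - R)]
  have c5 : (2 * C + 8 * L * C ^ 2) * Q < Q ^ 2 := by
    have : 2 * C + 8 * L * C ^ 2 < Q := by linarith
    rw [sq Q]
    exact mul_lt_mul_of_pos_right this (by linarith)
  have c6 : L * Q ^ 2 = (2 * C + C ^ 2) * Q ^ 2 + Q ^ 2 := by rw [hL]; ring
  clear_value Q R
  linarith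

theorem p1_sq (S : St) {I : Set ℝ} {u : Fn} {t y : ℝ} (hI : TI I) (ht : t ∈ I)
    (hy : y ∈ Icc (0 : ℝ) 1) (h : SmAt I u t y) :
    S.Pop I (fun s z => u s z * u s z) t y = 2 * u t y * S.Pop I u t y - 2 * dX u t y ^ 2 := by
  rw [pop_mul hI ht hy S h h]; ring

theorem p1_step (C : ℝ) : ∃ M, ∀ (S : St) (t₁ y₁ : ℝ) (p₁ p₂ : Fn), 0 < t₁ → 0 < y₁ → y₁ < 1 →
    (∀ t ∈ Icc 0 t₁, ∀ y ∈ Ico (0 : ℝ) 1, SmAt (Icc 0 t₁) p₁ t y ∧ SmAt (Icc 0 t₁) p₂ t y) →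
    (∀ t ∈ Icc 0 t₁, ∀ y ∈ Icc 0 y₁, |p₁ t y| ≤ C ∧ |p₂ t y| ≤ C) →
    (∀ t ∈ Icc 0 t₁, ∀ y ∈ Ioo 0 y₁,
      |S.Pop (Icc 0 t₁) p₁ t y| ≤ C * (1 + |dX p₁ t y| + |dX p₂ t y|) ∧
      |S.Pop (Icc 0 t₁) p₂ t y| ≤ C * (1 + |dX p₁ t y| + |dX p₂ t y|) ∧
      |S.Pop (Icc 0 t₁) (dX p₁) t y| ≤
        C * (1 + |dX p₁ t y| + |dX p₂ t y| + |dX (dX p₁) t y| + |dX (dX p₂) t y|) ∧
      |S.Pop (Icc 0 t₁) (dX p₂) t y| ≤
        C * (1 + |dX p₁ t y| + |dX p₂ t y| + |dX (dX p₁) t y| + |dX (dX p₂) t y|)) →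
    (∀ y ∈ Icc 0 y₁, |dX p₁ 0 y| ≤ C ∧ |dX p₂ 0 y| ≤ C) →
    (∀ t ∈ Icc 0 t₁, |dX p₁ t y₁| ≤ C ∧ |dX p₂ t y₁| ≤ C) →
    ∀ t ∈ Icc 0 t₁, ∀ y ∈ Icc 0 y₁, |dX p₁ t y| ≤ M ∧ |dX p₂ t y| ≤ M := by
  obtain ⟨L, hL⟩ : ∃ L, L = 2 * C + C ^ 2 + 1 := ⟨_, rfl⟩
  obtain ⟨K, hK⟩ : ∃ K, K = 2 * C + 8 * L * C ^ 2 + 1 := ⟨_, rfl⟩
  obtain ⟨M, hM⟩ : ∃ M, M = 2 * L * C ^ 2 + 2 * C ^ 2 + K ^ 2 + 1 := ⟨_, rfl⟩
  refine ⟨M, fun S t₁ y₁ p₁ p₂ h0 hy0 hy1 hs hp hP hi hb => ?_⟩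
  have hI : TI (Icc 0 t₁) := ti_Icc h0
  have hC : 0 ≤ C := (abs_nonneg _).trans (hp 0 ⟨le_rfl, h0.le⟩ 0 ⟨le_rfl, hy0.le⟩).1
  have hL0 : 0 < L := by rw [hL]; positivity
  have hM1 : 1 ≤ M := by
    rw [hM]
    have : 0 ≤ 2 * L * C ^ 2 + 2 * C ^ 2 + K ^ 2 := by positivity
    linarith
  set F : Fn := fun s z => dX p₁ s z * dX p₁ s z + dX p₂ s z * dX p₂ s z +
    L * (p₁ s z * p₁ s z + p₂ s z * p₂ s z) - M with hF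
  have hFs : ∀ t ∈ Icc 0 t₁, ∀ y ∈ Ico (0 : ℝ) 1, SmAt (Icc 0 t₁) F t y := by
    intro t ht y hy
    obtain ⟨s1, s2⟩ := hs t ht y hy
    have d1 := s1.dX hI ht (Ico_subset_Icc_self hy)
    have d2 := s2.dX hI ht (Ico_subset_Icc_self hy)
    exact (((d1.mul d1).add (d2.mul d2)).add
      ((smAt_const L).mul ((s1.mul s1).add (s2.mul s2)))).sub (smAt_const M)
  have sq : ∀ {x : ℝ}, |x| ≤ C → x * x ≤ C ^ 2 := fun {x} h => by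
    rw [← sq, ← sq_abs]; exact pow_le_pow_left₀ (abs_nonneg _) h 2
  have hpp : ∀ t ∈ Icc 0 t₁, ∀ y ∈ Icc 0 y₁,
      L * (p₁ t y * p₁ t y + p₂ t y * p₂ t y) ≤ 2 * L * C ^ 2 := by
    intro t ht y hy
    have := add_le_add (sq (hp t ht y hy).1) (sq (hp t ht y hy).2)
    nlinarith
  have hneg : ∀ t ∈ Icc 0 t₁, ∀ y ∈ Icc 0 y₁, F t y < 0 := by
    by_contra hcon
    push Not at hcon
    obtain ⟨t0, ht0, y0, hy0', h00⟩ := hcon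
    have hcont : ContinuousOn (fun p : ℝ × ℝ => F p.1 p.2) (Icc 0 t₁ ×ˢ Icc 0 y₁) := fun p hp' =>
      (hFs p.1 hp'.1 p.2 ⟨hp'.2.1, hp'.2.2.trans_lt hy1⟩).continuousWithinAt.mono
        (prod_mono_right (Icc_subset_Icc_right hy1.le))
    obtain ⟨⟨t, y⟩, ⟨ht, hy⟩, -, hF0, hF1, hF2⟩ := mp_first (ι := Unit) (F := fun _ => F)
      (isCompact_Icc.prod isCompact_Icc) (fun _ => hcont) ⟨(t0, y0), ⟨ht0, hy0'⟩, (), h00⟩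
    simp only at ht hy hF0 hF1 hF2
    have hbd : ¬(|dX p₁ t y| ≤ C ∧ |dX p₂ t y| ≤ C) := by
      rintro ⟨e1, e2⟩
      have := hpp t ht y hy
      have := sq e1
      have := sq e2
      have := sq_nonneg K
      simp only [hF] at hF0
      linarith
    have htp : 0 < t := lt_of_le_of_ne ht.1 fun e => hbd (e ▸ hi y hy)
    have hyp : 0 < y := lt_of_le_of_ne hy.1 fun e => hbd (by subst e; simp [dX, hC])
    have hyl : y < y₁ := lt_of_le_of_ne hy.2 fun e => hbd (e ▸ hb t ht)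
    have hyI : y ∈ Ico (0 : ℝ) 1 := ⟨hy.1, hyl.trans hy1⟩
    have hyc : y ∈ Icc (0 : ℝ) 1 := Ico_subset_Icc_self hyI
    have hΩ : Icc 0 t₁ ×ˢ Icc 0 y₁ ∈ 𝓝[Icc 0 t₁ ×ˢ Icc 0 1] (t, y) := by
      rw [nhdsWithin_prod_eq]
      exact prod_mem_prod self_mem_nhdsWithin (mem_nhdsWithin_of_mem_nhds (Icc_mem_nhds hyp hyl))
    obtain ⟨e0, -, e2⟩ := mp_pop S ⟨htp, ht.2⟩ ⟨hyp, hyI.2⟩ (hFs t ht y hyI) hΩ hF0
      (fun q hq h => hF1 q hq h ()) (fun q hq h => hF2 q hq h ())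
    obtain ⟨s1, s2⟩ := hs t ht y hyI
    have d1 := s1.dX hI ht hyc
    have d2 := s2.dX hI ht hyc
    have sp := (s1.mul s1).add (s2.mul s2)
    rw [hF, pop_sub hI ht hyc S (((d1.mul d1).add (d2.mul d2)).add ((smAt_const L).mul sp))
      (smAt_const M), pop_add hI ht hyc S ((d1.mul d1).add (d2.mul d2)) ((smAt_const L).mul sp),
      pop_add hI ht hyc S (d1.mul d1) (d2.mul d2), pop_mul hI ht hyc S (smAt_const L) sp,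
      pop_add hI ht hyc S (s1.mul s1) (s2.mul s2), p1_sq S hI ht hyc d1, p1_sq S hI ht hyc d2,
      p1_sq S hI ht hyc s1, p1_sq S hI ht hyc s2, pop_const hI ht hyc S, pop_const hI ht hyc S,
      dX_time hI ht hyc (fun _ => L)] at e2
    obtain ⟨g1, g2, g3, g4⟩ := hP t ht y ⟨hyp, hyl⟩
    have hq : K ^ 2 ≤ dX p₁ t y ^ 2 + dX p₂ t y ^ 2 := by
      have := hpp t ht y hy
      have := sq_nonneg C
      simp only [hF] at e0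
      nlinarith
    have := p1_alg hC hL hK (hp t ht y hy).1 (hp t ht y hy).2 g1 g2 g3 g4 hq
    linarith
  intro t ht y hy
  have h1 := hneg t ht y hy
  have h2 : 0 ≤ L * (p₁ t y * p₁ t y + p₂ t y * p₂ t y) :=
    mul_nonneg hL0.le (add_nonneg (mul_self_nonneg _) (mul_self_nonneg _))
  simp only [hF] at h1
  have h3 := mul_self_nonneg (dX p₁ t y)
  have h4 := mul_self_nonneg (dX p₂ t y)
  constructor <;> refine abs_le_of_sq_le_sq' ?_ (by linarith) |> abs_le.2 <;> nlinarith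

end Vale.Agent.P244
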