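import Vale.Agent.P244.A.SyI

/-!
P1/Lin: linear structure of the equations of the iterated derivatives.
`Lin c n m P U V` : `P = C₁ U + C₂ V + G` with `C₁`, `C₂` symbols of level `n`, `G` of level `m`.
-/

namespace Vale.Agent.P244

open scoped ContDiff Topology
open Set Filter Real

namespace Ctx

variable {ι : Type} {c : Ctx ι} {n m : ℕ}

/-- The constant weight. -/
abbrev w1 (ι : Type) : ι → ℝ → ℝ := fun _ _ => 1

/-- `P = C₁ U + C₂ V + G` on `J`. -/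
def Lin (c : Ctx ι) (n m : ℕ) (P U V : ι → ℝ → ℝ) : Prop :=
  ∃ C₁ C₂ G : ι → ℝ → ℝ, c.Sy n (w1 ι) C₁ ∧ c.Sy n (w1 ι) C₂ ∧ c.Sy m (w1 ι) G ∧
    ∀ i, ∀ y ∈ c.J i, P i y = C₁ i y * U i y + C₂ i y * V i y + G i y

theorem Sy.mul1 {g g' : ι → ℝ → ℝ} (h : c.Sy (n + 1) (w1 ι) g) (h' : c.Sy (n + 1) (w1 ι) g') :
    c.Sy (n + 1) (w1 ι) (fun i y => g i y * g' i y) :=
  (h.mul h').mono ⟨1, zero_le_one, fun _ _ _ => by simp⟩

theorem Sy.mul1t {g g' : ι → ℝ → ℝ} (h : c.Sy (n + 1) (w1 ι) g) (h' : c.Sy n (w1 ι) g') :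
    c.Sy n (w1 ι) (fun i y => g i y * g' i y) :=
  (h.mul_top h').mono ⟨1, zero_le_one, fun _ _ _ => by simp⟩

theorem sy_num (c : Ctx ι) (n : ℕ) (a : ℝ) : c.Sy n (w1 ι) (fun _ _ => a) :=
  sy_const (fun _ => a) ⟨|a|, abs_nonneg a, fun _ _ _ => by simp⟩

theorem Sy.iterD {w g : ι → ℝ → ℝ} (k : ℕ) (h : c.Sy (m + k) w g) : c.Sy m w (c.D^[k] g) := by
  induction k generalizing g with
  | zero => exact h
  | succ k ih => exact ih (Sy.D (n := m + k) h)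

theorem D_lin {C₁ C₂ G U V : ι → ℝ → ℝ} (h1 : c.Smo C₁) (h2 : c.Smo C₂) (hG : c.Smo G)
    (hU : c.Smo U) (hV : c.Smo V) (i : ι) {y : ℝ} (hy : y ∈ c.J i) :
    c.D (fun i y => C₁ i y * U i y + C₂ i y * V i y + G i y) i y =
      c.D C₁ i y * U i y + C₁ i y * c.D U i y + (c.D C₂ i y * V i y + C₂ i y * c.D V i y) +
        c.D G i y := by
  simp only [Ctx.D, dl]
  rw [derivWithin_fun_add (((h1.diff hy).fun_mul (hU.diff hy)).fun_add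
    ((h2.diff hy).fun_mul (hV.diff hy))) (hG.diff hy),
    derivWithin_fun_add ((h1.diff hy).fun_mul (hU.diff hy))
    ((h2.diff hy).fun_mul (hV.diff hy)), derivWithin_fun_mul (h1.diff hy) (hU.diff hy),
    derivWithin_fun_mul (h2.diff hy) (hV.diff hy)]
  ring

theorem Lin.step {P P' U V a W : ι → ℝ → ℝ} (h : c.Lin (n + 1) (m + 1) P U V) (hm : m + 1 ≤ n)
    (hU : c.Sy m (w1 ι) U) (hV : c.Sy m (w1 ι) V) (ha : c.Sy (n + 1) (w1 ι) a)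
    (hW : c.Sy (n + 1) (w1 ι) W)
    (e : ∀ i, ∀ y ∈ c.J i, P' i y = c.D P i y - 2 * a i y * P i y - 2 * a i y * c.D U i y -
      (4 + W i y) * U i y) : c.Lin (n + 1) m P' (c.D U) (c.D V) := by
  obtain ⟨C₁, C₂, G, h1, h2, hG, eP⟩ := h
  have hm' : m + 1 ≤ n + 1 := by omega
  have a1 := ha.of_le hm'
  refine ⟨fun i y => C₁ i y - 2 * a i y, C₂, fun i y =>
    (c.D C₁ i y - 2 * (a i y * C₁ i y) - (4 + W i y)) * U i y +
      (c.D C₂ i y - 2 * (a i y * C₂ i y)) * V i y + c.D G i y - 2 * (a i y * G i y),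
    h1.sub (ha.cmul 2), h2, ?_, fun i y hy => ?_⟩
  · exact ((((((h1.D.of_le hm).sub ((a1.mul1 (h1.of_le hm')).cmul 2)).sub
      ((sy_num c _ 4).add (hW.of_le hm'))).mul1t hU).add
      (((h2.D.of_le hm).sub ((a1.mul1 (h2.of_le hm')).cmul 2)).mul1t hV)).add hG.D).sub
      ((a1.mul1t hG.pred).cmul 2)
  · rw [e i y hy, D_congr (g := fun i y => C₁ i y * U i y + C₂ i y * V i y + G i y)
      (fun i y hy => eP i y hy) i hy, D_lin h1.1 h2.1 hG.1 hU.1 hV.1 i hy, eP i y hy]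
    ring

theorem lin_bd {C₁ C₂ U V G P B K₁ K₂ K₃ : ℝ} (k₁ : 0 ≤ K₁) (k₂ : 0 ≤ K₂) (k₃ : 0 ≤ K₃)
    (hB : 0 ≤ B) (h1 : |C₁| ≤ K₁) (h2 : |C₂| ≤ K₂) (h3 : |G| ≤ K₃ * B)
    (e : P = C₁ * U + C₂ * V + G) : |P| ≤ (K₁ + K₂ + K₃) * (B + |U| + |V|) := by
  have a1 : |C₁ * U| ≤ K₁ * |U| := by rw [abs_mul]; gcongr
  have a2 : |C₂ * V| ≤ K₂ * |V| := by rw [abs_mul]; gcongr
  have a3 := abs_add_three (C₁ * U) (C₂ * V) G
  have u := abs_nonneg U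
  have v := abs_nonneg V
  rw [e]
  nlinarith [mul_nonneg k₁ hB, mul_nonneg k₁ v, mul_nonneg k₂ hB, mul_nonneg k₂ u,
    mul_nonneg k₃ u, mul_nonneg k₃ v]

theorem Lin.bd {P U V : ι → ℝ → ℝ} (h : c.Lin (n + 1) (m + 1) P U V) :
    ∃ K, 0 ≤ K ∧ ∀ i, ∀ y ∈ c.Ω i, |P i y| ≤ K * (1 + |U i y| + |V i y|) := by
  obtain ⟨C₁, C₂, G, h1, h2, hG, eP⟩ := h
  obtain ⟨K₁, k₁, b₁⟩ := h1.bd
  obtain ⟨K₂, k₂, b₂⟩ := h2.bd
  obtain ⟨K₃, k₃, b₃⟩ := hG.bd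
  refine ⟨K₁ + K₂ + K₃, by positivity, fun i y hy => lin_bd k₁ k₂ k₃ zero_le_one
    (by simpa using b₁ i y hy) (by simpa using b₂ i y hy) (by simpa using b₃ i y hy)
    (eP i y (c.sub i hy))⟩

theorem Lin.bd_top {P U V : ι → ℝ → ℝ} (h : c.Lin (n + 1) 0 P U V) :
    ∃ K, 0 ≤ K ∧ ∀ i, ∀ y ∈ c.Ω i, |P i y| ≤ K * (c.N i y + |U i y| + |V i y|) := by
  obtain ⟨C₁, C₂, G, h1, h2, hG, eP⟩ := h
  obtain ⟨K₁, k₁, b₁⟩ := h1.bd
  obtain ⟨K₂, k₂, b₂⟩ := h2.bd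
  obtain ⟨K₃, k₃, b₃⟩ := hG.top
  have hN := fun i y hy => zero_le_one.trans (c.one i y hy)
  refine ⟨K₁ + K₂ + K₃, by positivity, fun i y hy => lin_bd k₁ k₂ k₃ (hN i y hy)
    (by simpa using b₁ i y hy) (by simpa using b₂ i y hy)
    (by simpa [abs_of_nonneg (hN i y hy)] using b₃ i y hy) (eP i y (c.sub i hy))⟩

end Ctx

/-- The parabolic operator applied to a quantity, as a family of functions of `y`. -/
noncomputable def PF {κ : Cst} {q : Rn κ → Prop} (g : St → Fn) : Ix q → ℝ → ℝ :=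
  fun i => i.1.1.S.Pop i.1.1.I (g i.1.1.S) i.1.2

/-- Smooth on `[0, t₁] × [0, 1)` along every solution. -/
def SmQ (g : St → Fn) : Prop := ∀ (S : St) t₁, S.Sol t₁ → ∀ t ∈ Icc 0 t₁, ∀ y ∈ Ico (0 : ℝ) 1,
  SmAt (Icc 0 t₁) (g S) t y

theorem SmQ.iter {g : St → Fn} (h : SmQ g) (k : ℕ) : SmQ fun S => dX^[k] (g S) := by
  induction k with
  | zero => exact h
  | succ k ih =>
    intro S t₁ hS t ht y hy
    simp only [Function.iterate_succ_apply']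
    exact (ih S t₁ hS t ht y hy).dX hS.ti ht (Ico_subset_Icc_self hy)

theorem smQ_u1 : SmQ St.u1 := fun _ _ hS _ ht _ hy => hS.sm_u1.smAt ht (Ico_subset_Icc_self hy)

theorem smQ_u2 : SmQ St.u2 := fun _ _ hS _ ht _ hy => hS.sm_u2 ht hy

theorem IC.lin_iter {κ : Cst} {q : Rn κ → Prop} {c : Ctx (Ix q)} {l : ℕ} (hc : IC c (l + 1))
    {g₁ g₂ : St → Fn} (hs : SmQ g₁) (h1 : c.Sy (l + 1) (fun _ _ => 1) (F g₁))
    (h2 : c.Sy (l + 1) (fun _ _ => 1) (F g₂))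
    (h0 : c.Lin (l + 2) (l + 1) (PF g₁) (c.D (F g₁)) (c.D (F g₂))) {j m : ℕ} (hj : m + j = l + 1) :
    c.Lin (l + 2) m (PF fun S => dX^[j] (g₁ S)) (c.D^[j + 1] (F g₁)) (c.D^[j + 1] (F g₂)) := by
  induction j generalizing m with
  | zero =>
    obtain rfl : m = l + 1 := hj
    exact h0
  | succ j ih =>
    have h := ih (m := m + 1) (by omega)
    rw [Function.iterate_succ_apply' c.D (j + 1), Function.iterate_succ_apply' c.D (j + 1)]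
    refine h.step (by omega) (Ctx.Sy.iterD (j + 1) (hj ▸ h1)) (Ctx.Sy.iterD (j + 1) (hj ▸ h2))
      hc.aa hc.WW fun i y hy => ?_
    have hyI := hc.J i hy
    have e := i.1.1.sol.pop_dX i.2.2 (Ico_subset_Icc_self hyI)
      (hs.iter j _ _ i.1.1.sol _ i.2.2 y hyI)
    rw [hc.iter_F, hc.D_F]
    simp only [PF, F, Function.iterate_succ_apply', Ctx.D, hc.cf]
    rw [e]
    rfl

end Vale.Agent.P244
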